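import Vale.Agent.Lib.P243.Uniform
import Vale.Agent.Lib.P243.Defs

open MeasureTheory Submodule Module Vale.Agent.Lib.P243

/-- Bang's cylinder covering problem in the directionwise form: there is an absolute constant
`c > 1 / 3` such that for every convex body `K` in a Euclidean three-space `E` and every finite
covering of `K` by cylinders with unit axes the directionwise relative area is at least `c`. -/
theorem Vale.Agent.Results.P243.A_strict.result :
    ∃ c : ℝ, 1 / 3 < c ∧
      ∀ {E : Type} [NormedAddCommGroup E] [InnerProductSpace ℝ E] [FiniteDimensional ℝ E]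
        [MeasurableSpace E] [BorelSpace E], finrank ℝ E = 3 →
      ∀ K : Set E, Convex ℝ K → IsCompact K → (interior K).Nonempty →
      ∀ {ι : Type} [Fintype ι] (u : ι → E), (∀ i, ‖u i‖ = 1) →
      ∀ B : (i : ι) → Set (ℝ ∙ u i)ᗮ, CylinderCover K u B →
        ENNReal.ofReal c ≤ relArea K u B := by
  obtain ⟨C0, h3, h0, h⟩ := exists_constant
  refine ⟨C0⁻¹, ?_, ?_⟩
  · rw [one_div]
    exact inv_strictAnti₀ h0 h3
  · intro E _ _ _ _ _ hE K hc hK hi ι _ u hu B hcov
    have hB : Body K := ⟨hc, hK, hi⟩
    obtain ⟨f, hf⟩ := h hE K hB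
    exact cert_cover hB h0 hf u hu B hcov
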