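import Vale.Agent.Lib.P243.SymmTransfer

open MeasureTheory Submodule Module

/-- Cylinder covering of a centrally symmetric convex body in a Euclidean three-space `E`: the sum
of the base areas, each divided by the area of the shadow of the body along the same axis, is at
least `5 / 12`. A point `x` lies in the cylinder `B i + ℝ u i` exactly when its orthogonal projection
to the plane orthogonal to `u i` lies in `B i`. The measure on that plane is its planar Lebesgue
measure. -/
theorem Vale.Agent.Results.P243.B_symm.result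
    {E : Type} [NormedAddCommGroup E] [InnerProductSpace ℝ E] [FiniteDimensional ℝ E]
    [MeasurableSpace E] [BorelSpace E] (hE : finrank ℝ E = 3)
    (K : Set E) (hc : Convex ℝ K) (hK : IsCompact K)
    (hi : (interior K).Nonempty) (hs : ∀ x ∈ K, -x ∈ K)
    {ι : Type} [Fintype ι] (u : ι → E) (hu : ∀ i, ‖u i‖ = 1)
    (B : (i : ι) → Set (ℝ ∙ u i)ᗮ)
    (hcov : ∀ x ∈ K, ∃ i, (ℝ ∙ u i)ᗮ.orthogonalProjectionOnto x ∈ B i) :
    (5 / 12 : ENNReal) ≤
      ∑ i, volume (B i) / volume ((ℝ ∙ u i)ᗮ.orthogonalProjectionOnto '' K) :=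
  Vale.Agent.Lib.P243.symm_main hE hc hK hi hs u hu B hcov
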