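import Vale.Agent.Lib.P243.PartC

open MeasureTheory Submodule Module

/-- For each single convex body `K` in a Euclidean three-space `E` there is a constant `c > 1 / 3`,
depending on `K`, such that every finite cylinder covering of `K` has directionwise relative area
at least `c`. A point `x` lies in the cylinder `B i + ℝ u i` exactly when its orthogonal projection
to the plane orthogonal to `u i` lies in `B i`. The measure on that plane is its planar Lebesgue
measure. -/
theorem Vale.Agent.Results.P243.C_body.result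
    {E : Type} [NormedAddCommGroup E] [InnerProductSpace ℝ E] [FiniteDimensional ℝ E]
    [MeasurableSpace E] [BorelSpace E] (hE : finrank ℝ E = 3)
    (K : Set E) (hc : Convex ℝ K) (hK : IsCompact K) (hi : (interior K).Nonempty) :
    ∃ c : ℝ, 1 / 3 < c ∧ ∀ {ι : Type} [Fintype ι] (u : ι → E) (_ : ∀ i, ‖u i‖ = 1)
      (B : (i : ι) → Set (ℝ ∙ u i)ᗮ),
      (∀ x ∈ K, ∃ i, (ℝ ∙ u i)ᗮ.orthogonalProjectionOnto x ∈ B i) →
      ENNReal.ofReal c ≤ ∑ i, volume (B i) / volume ((ℝ ∙ u i)ᗮ.orthogonalProjectionOnto '' K) := by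
  have hB : Vale.Agent.Lib.P243.Body K := ⟨hc, hK, hi⟩
  obtain ⟨f, C, hC3, hC0, hcert⟩ := Vale.Agent.Lib.P243.partA hE hB
  refine ⟨C⁻¹, ?_, fun u hu B hcov => Vale.Agent.Lib.P243.cert_cover hB hC0 hcert u hu B hcov⟩
  rw [one_div]
  exact inv_strictAnti₀ hC0 hC3
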